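import Vale.Agent.Lib.P335.SGAll

open Finset

namespace Vale.Agent.Results.P335.KannanTetaliVempala

open Vale.Agent.Lib.P335

/-- The switch chain mixes in time at most `n ^ 6` for every graphical degree vector. -/
theorem result : ∀ n : ℕ, 4 ≤ n → ∀ d : Fin n → ℕ, Nonempty (Realiz d) →
    mixed d (tmix d) ∧ tmix d ≤ n ^ 6 := by
  intro n hn d ⟨G⟩
  have h : mixed d (n ^ 6) := SG.mixed_all hn d G
  have hne : {t | mixed d t}.Nonempty := ⟨n ^ 6, h⟩
  exact ⟨Nat.sInf_mem hne, Nat.sInf_le h⟩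

end Vale.Agent.Results.P335.KannanTetaliVempala
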