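import Vale.Agent.Lib.P335.Graph2

open Finset

namespace Vale.Agent.Results.P335.SplitRapidMixing

open Vale.Agent.Lib.P335

/-- The switch chain mixes in time at most `n ^ 6` for every split degree vector. -/
theorem result : ∀ n : ℕ, 4 ≤ n → ∀ d : Fin n → ℕ,
    (∃ G : Realiz d, ∃ K : Finset (Fin n),
      (∀ u ∈ K, ∀ v ∈ K, u ≠ v → G.1.Adj u v) ∧ (∀ u ∉ K, ∀ v ∉ K, ¬ G.1.Adj u v)) →
    mixed d (tmix d) ∧ tmix d ≤ n ^ 6 := by
  intro n hn d ⟨G, K, hK⟩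
  have h : mixed d (n ^ 6) := final hn d G K hK
  have hne : {t | mixed d t}.Nonempty := ⟨n ^ 6, h⟩
  exact ⟨Nat.sInf_mem hne, Nat.sInf_le h⟩

end Vale.Agent.Results.P335.SplitRapidMixing
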